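import Vale.Agent.P235.Final

/-!
# P235: constants in the Gupta-Newman-Rabinovich-Sinclair conjecture grow exponentially in the
treewidth

For every `n ≥ 1` there are a finite connected graph of treewidth at most `2n + 8` and positive edge
lengths such that every embedding of the shortest-path metric into an `L₁` space has distortion at
least `(4/3)^n`.
-/

namespace Vale.Agent.Results.P235.TreewidthExponential

open _root_.P235

/-- For every `n ≥ 1` there are a finite connected graph `G` of treewidth at most `2n + 8` and
positive edge lengths `ℓ` such that the path metric of `(G, ℓ)` does not embed into any `L₁` space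
with distortion less than `(4/3)^n`. -/
theorem result (n : ℕ) (hn : 1 ≤ n) :
    ∃ (V : Type) (_ : Finite V) (G : SimpleGraph V) (ℓ : Sym2 V → ℝ),
      G.Connected ∧ (∀ e ∈ G.edgeSet, 0 < ℓ e) ∧ TreewidthLE G (2 * n + 8) ∧
        ∀ C : ℝ, EmbedsL1 (pathDist G ℓ) C → (4 / 3) ^ n ≤ C := by
  obtain ⟨V, hV, G, ℓ, h1, h2, h3, h4⟩ := exponential n hn
  exact ⟨V, hV, G, ℓ, h1, h2, h3, fun C hC => h4 C hC⟩

end Vale.Agent.Results.P235.TreewidthExponential
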